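import Vale.Agent.P074.Counter3

/-!
# P074: no stability exponent above 1/3 is admissible, in any dimension at least 2
-/

namespace Vale.Agent.Results.P074.NoExponentAboveThird

open Vale.Agent.P074

/-- For every `d ≥ 2`, no exponent `α > 1/3` is admissible (in particular `1/2` is not). -/
theorem result : ∀ d : ℕ, 2 ≤ d → ∀ α : ℝ, 1 / 3 < α → ¬ Admissible d α :=
  fun _ hd _ hα => not_admissible hd hα

end Vale.Agent.Results.P074.NoExponentAboveThird
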