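import Vale.Agent.P074.Counter3
import Vale.Agent.P074.Lower

/-!
# P074: the stability exponent of quadratic optimal transport maps is 1/3, and it is attained
-/

namespace Vale.Agent.Results.P074.StabilityExponent

open Vale.Agent.P074

/-- For every `d ≥ 2`, an exponent `α ∈ (0, 1]` is admissible if and only if `α ≤ 1/3`; so `1/3` is
the greatest admissible exponent: the supremum `α*_d` equals `1/3` and is attained. -/
theorem result : ∀ d : ℕ, 2 ≤ d →
    (∀ α : ℝ, 0 < α → α ≤ 1 → (Admissible d α ↔ α ≤ 1 / 3)) ∧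
      IsGreatest {α : ℝ | 0 < α ∧ α ≤ 1 ∧ Admissible d α} (1 / 3) := by
  intro d hd
  have h1 : ∀ α : ℝ, 0 < α → α ≤ 1 → (Admissible d α ↔ α ≤ 1 / 3) := by
    intro α hα0 _
    constructor
    · intro h
      by_contra hcon
      exact not_admissible hd (not_le.1 hcon) h
    · exact fun h => admissible_of_le (by omega) hα0 h
  refine ⟨h1, ?_, ?_⟩
  · refine ⟨by norm_num, by norm_num, ?_⟩
    exact (h1 (1 / 3) (by norm_num) (by norm_num)).2 le_rfl
  · rintro α ⟨hα0, hα1, hα⟩
    exact (h1 α hα0 hα1).1 hα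

end Vale.Agent.Results.P074.StabilityExponent
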